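import Mathlib

/-!
Definitions for problem P227 (the logarithmic Brunn-Minkowski conjecture), for arbitrary
finite-dimensional real inner product spaces (every such space is isometric to some `ℝ^n`).
-/

namespace Vale.Agent.Helper24.P227

open MeasureTheory

/-- The support function `h_K(u) = sup_{x ∈ K} ⟨x, u⟩`. -/
noncomputable def hSupp {E : Type*} [NormedAddCommGroup E] [InnerProductSpace ℝ E]
    (K : Set E) (u : E) : ℝ :=
  sSup ((fun x => inner ℝ x u) '' K)

/-- The logarithmic combination `(1 - t) K +_0 t L`, i.e. the Wulff body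
`⋂_{‖u‖ = 1} {x : ⟨x, u⟩ ≤ h_K(u)^(1-t) * h_L(u)^t}`. -/
noncomputable def logSum {E : Type*} [NormedAddCommGroup E] [InnerProductSpace ℝ E]
    (t : ℝ) (K L : Set E) : Set E :=
  {x | ∀ u : E, ‖u‖ = 1 → inner ℝ x u ≤ hSupp K u ^ (1 - t) * hSupp L u ^ t}

/-- An origin-symmetric convex body: compact, convex, with nonempty interior, and `K = -K`. -/
def IsSymmBody {E : Type*} [NormedAddCommGroup E] [InnerProductSpace ℝ E] (K : Set E) : Prop :=
  IsCompact K ∧ Convex ℝ K ∧ (interior K).Nonempty ∧ ∀ x ∈ K, -x ∈ K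

/-- The logarithmic Brunn-Minkowski inequality for the pair `K, L` at the parameter `t`:
`|(1 - t) K +_0 t L| ≥ |K|^(1-t) * |L|^t`, where `|·|` is Lebesgue measure. -/
def LogBM {E : Type*} [NormedAddCommGroup E] [InnerProductSpace ℝ E] [MeasurableSpace E]
    [BorelSpace E] [FiniteDimensional ℝ E] (t : ℝ) (K L : Set E) : Prop :=
  volume K ^ (1 - t) * volume L ^ t ≤ volume (logSum t K L)

/-- The product `A × B` of two sets, as a subset of the orthogonal direct sum of the two
spaces (the product space with the Euclidean, i.e. `L^2`, inner product). -/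
def prodBody {U V : Type*} (A : Set U) (B : Set V) : Set (WithLp 2 (U × V)) :=
  {z | (WithLp.ofLp z).1 ∈ A ∧ (WithLp.ofLp z).2 ∈ B}

end Vale.Agent.Helper24.P227
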