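import Mathlib
import Vale.Agent.Helper24.P227Defs

namespace Vale.Agent.Helper24.P227

open MeasureTheory
open scoped Pointwise

/-- two-term Hoelder inequality -/
theorem holder2 (a₁ a₂ b₁ b₂ t : ℝ) (ha₁ : 0 ≤ a₁) (ha₂ : 0 ≤ a₂) (hb₁ : 0 ≤ b₁) (hb₂ : 0 ≤ b₂)
    (ht0 : 0 ≤ t) (ht1 : t ≤ 1) :
    a₁ ^ (1 - t) * b₁ ^ t + a₂ ^ (1 - t) * b₂ ^ t ≤ (a₁ + a₂) ^ (1 - t) * (b₁ + b₂) ^ t := by
  rcases eq_or_lt_of_le ht0 with rfl | ht0'
  · simp
  rcases eq_or_lt_of_le ht1 with rfl | ht1'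
  · simp
  have h1t : 0 < 1 - t := by linarith
  rcases eq_or_lt_of_le (add_nonneg ha₁ ha₂) with hA | hA
  · have e1 : a₁ = 0 := by linarith
    have e2 : a₂ = 0 := by linarith
    rw [e1, e2]
    simp [Real.zero_rpow h1t.ne']
  rcases eq_or_lt_of_le (add_nonneg hb₁ hb₂) with hB | hB
  · have e1 : b₁ = 0 := by linarith
    have e2 : b₂ = 0 := by linarith
    rw [e1, e2]
    simp [Real.zero_rpow ht0'.ne']
  set A := a₁ + a₂ with hAdef
  set B := b₁ + b₂ with hBdef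
  have key : ∀ a b : ℝ, 0 ≤ a → 0 ≤ b →
      a ^ (1 - t) * b ^ t ≤ A ^ (1 - t) * B ^ t * ((1 - t) * (a / A) + t * (b / B)) := by
    intro a b ha hb
    have h := Real.geom_mean_le_arith_mean2_weighted h1t.le ht0'.le (div_nonneg ha hA.le)
      (div_nonneg hb hB.le) (by ring)
    have e : a ^ (1 - t) * b ^ t = A ^ (1 - t) * B ^ t * ((a / A) ^ (1 - t) * (b / B) ^ t) := by
      rw [Real.div_rpow ha hA.le, Real.div_rpow hb hB.le]
      have hA' : A ^ (1 - t) ≠ 0 := (Real.rpow_pos_of_pos hA _).ne'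
      have hB' : B ^ t ≠ 0 := (Real.rpow_pos_of_pos hB _).ne'
      field_simp
    rw [e]
    exact mul_le_mul_of_nonneg_left h (mul_nonneg (Real.rpow_nonneg hA.le _) (Real.rpow_nonneg hB.le _))
  have k1 := key a₁ b₁ ha₁ hb₁
  have k2 := key a₂ b₂ ha₂ hb₂
  have hsum : (1 - t) * (a₁ / A) + t * (b₁ / B) + ((1 - t) * (a₂ / A) + t * (b₂ / B)) = 1 := by
    have hA' : A ≠ 0 := hA.ne'
    have hB' : B ≠ 0 := hB.ne'
    field_simp
    rw [hAdef, hBdef]
    ring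
  calc a₁ ^ (1 - t) * b₁ ^ t + a₂ ^ (1 - t) * b₂ ^ t
      ≤ A ^ (1 - t) * B ^ t * ((1 - t) * (a₁ / A) + t * (b₁ / B))
        + A ^ (1 - t) * B ^ t * ((1 - t) * (a₂ / A) + t * (b₂ / B)) := add_le_add k1 k2
    _ = A ^ (1 - t) * B ^ t := by rw [← mul_add, hsum, mul_one]

variable {E : Type*} [NormedAddCommGroup E] [InnerProductSpace ℝ E]

theorem bdd_image (K : Set E) (hK : IsCompact K) (u : E) :
    BddAbove ((fun x => inner ℝ x u) '' K) :=
  (hK.image (by fun_prop)).bddAbove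

theorem hSupp_nonneg (K : Set E) (hK : IsCompact K) (h0 : (0 : E) ∈ K) (u : E) :
    0 ≤ hSupp K u :=
  le_csSup (bdd_image K hK u) ⟨0, h0, by simp⟩

theorem hSupp_zero (K : Set E) (hne : K.Nonempty) : hSupp K (0 : E) = 0 := by
  unfold hSupp
  have : (fun x : E => inner ℝ x (0 : E)) '' K = {0} := by
    ext y
    constructor
    · rintro ⟨x, _, rfl⟩
      simp
    · intro hy
      obtain ⟨x, hx⟩ := hne
      exact ⟨x, hx, by simpa using hy.symm⟩
  rw [this]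
  simp

theorem hSupp_smul (K : Set E) (c : ℝ) (hc : 0 ≤ c) (w : E) :
    hSupp K (c • w) = c * hSupp K w := by
  unfold hSupp
  have : (fun x : E => inner ℝ x (c • w)) '' K = c • ((fun x : E => inner ℝ x w) '' K) := by
    ext y
    constructor
    · rintro ⟨x, hx, rfl⟩
      exact ⟨inner ℝ x w, ⟨x, hx, rfl⟩, by simp [inner_smul_right]⟩
    · rintro ⟨_, ⟨x, hx, rfl⟩, rfl⟩
      exact ⟨x, hx, by simp [inner_smul_right]⟩
  rw [this, Real.sSup_smul_of_nonneg hc, smul_eq_mul]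

/-- membership in the logarithmic combination gives the inequality for all directions -/
theorem logSum_all (t : ℝ) (ht0 : 0 ≤ t) (ht1 : t ≤ 1) (K L : Set E) (hK : IsCompact K)
    (hL : IsCompact L) (h0K : (0 : E) ∈ K) (h0L : (0 : E) ∈ L) (x : E) (hx : x ∈ logSum t K L)
    (v : E) : inner ℝ x v ≤ hSupp K v ^ (1 - t) * hSupp L v ^ t := by
  by_cases hv : v = 0
  · subst hv
    rw [hSupp_zero K ⟨0, h0K⟩, hSupp_zero L ⟨0, h0L⟩, inner_zero_right]
    by_cases ht : t = 0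
    · subst ht; simp
    · rw [Real.zero_rpow ht, mul_zero]
  · have hn : 0 < ‖v‖ := norm_pos_iff.mpr hv
    set w : E := ‖v‖⁻¹ • v with hw
    have hw1 : ‖w‖ = 1 := by
      rw [hw, norm_smul, norm_inv, norm_norm, inv_mul_cancel₀ hn.ne']
    have hvw : v = ‖v‖ • w := by
      rw [hw, smul_smul, mul_inv_cancel₀ hn.ne', one_smul]
    have h1 := hx w hw1
    have hKw := hSupp_nonneg K hK h0K w
    have hLw := hSupp_nonneg L hL h0L w
    have e1 : hSupp K v = ‖v‖ * hSupp K w := by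
      conv_lhs => rw [hvw]
      exact hSupp_smul K ‖v‖ hn.le w
    have e2 : hSupp L v = ‖v‖ * hSupp L w := by
      conv_lhs => rw [hvw]
      exact hSupp_smul L ‖v‖ hn.le w
    have e3 : inner ℝ x v = ‖v‖ * inner ℝ x w := by
      conv_lhs => rw [hvw]
      rw [inner_smul_right]
    rw [e1, e2, e3, Real.mul_rpow hn.le hKw, Real.mul_rpow hn.le hLw]
    have e4 : ‖v‖ ^ (1 - t) * ‖v‖ ^ t = ‖v‖ := by
      rw [← Real.rpow_add hn]
      simp
    calc ‖v‖ * inner ℝ x w ≤ ‖v‖ * (hSupp K w ^ (1 - t) * hSupp L w ^ t) :=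
          mul_le_mul_of_nonneg_left h1 hn.le
      _ = ‖v‖ ^ (1 - t) * hSupp K w ^ (1 - t) * (‖v‖ ^ t * hSupp L w ^ t) := by
          conv_lhs => rw [← e4]
          ring

end Vale.Agent.Helper24.P227
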