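import Mathlib
import Vale.Agent.Helper24.P227Defs
import Vale.Agent.Helper24.P227Lemmas

namespace Vale.Agent.Helper24.P227

open MeasureTheory

variable {U V : Type*} [NormedAddCommGroup U] [InnerProductSpace ℝ U]
  [NormedAddCommGroup V] [InnerProductSpace ℝ V]

theorem prod_bdd (K₁ : Set U) (K₂ : Set V) (h₁ : IsCompact K₁) (h₂ : IsCompact K₂)
    (u : WithLp 2 (U × V)) :
    ∀ y ∈ (fun z : WithLp 2 (U × V) => inner ℝ z u) '' (prodBody K₁ K₂),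
      y ≤ hSupp K₁ u.fst + hSupp K₂ u.snd := by
  rintro y ⟨z, ⟨hz1, hz2⟩, rfl⟩
  simp only [WithLp.prod_inner_apply]
  exact add_le_add (le_csSup (bdd_image K₁ h₁ _) ⟨_, hz1, rfl⟩)
    (le_csSup (bdd_image K₂ h₂ _) ⟨_, hz2, rfl⟩)

theorem prod_hSupp_ge (K₁ : Set U) (K₂ : Set V) (h₁ : IsCompact K₁) (h₂ : IsCompact K₂)
    (hne₁ : K₁.Nonempty) (hne₂ : K₂.Nonempty) (u : WithLp 2 (U × V)) :
    hSupp K₁ u.fst + hSupp K₂ u.snd ≤ hSupp (prodBody K₁ K₂) u := by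
  have hb : BddAbove ((fun z : WithLp 2 (U × V) => inner ℝ z u) '' (prodBody K₁ K₂)) :=
    ⟨_, prod_bdd K₁ K₂ h₁ h₂ u⟩
  have key : ∀ x₁ ∈ K₁, ∀ x₂ ∈ K₂,
      inner ℝ x₁ u.fst + inner ℝ x₂ u.snd ≤ hSupp (prodBody K₁ K₂) u := by
    intro x₁ hx₁ x₂ hx₂
    refine le_csSup hb ⟨WithLp.toLp 2 (x₁, x₂), ⟨hx₁, hx₂⟩, ?_⟩
    simp [WithLp.prod_inner_apply]
  have s1 : hSupp K₁ u.fst ≤ hSupp (prodBody K₁ K₂) u - hSupp K₂ u.snd := by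
    apply csSup_le (hne₁.image _)
    rintro _ ⟨x₁, hx₁, rfl⟩
    have s2 : hSupp K₂ u.snd ≤ hSupp (prodBody K₁ K₂) u - inner ℝ x₁ u.fst := by
      apply csSup_le (hne₂.image _)
      rintro _ ⟨x₂, hx₂, rfl⟩
      have := key x₁ hx₁ x₂ hx₂
      simp only
      linarith
    simp only
    linarith
  linarith

theorem prod_logSum_subset (t : ℝ) (ht0 : 0 ≤ t) (ht1 : t ≤ 1)
    (K₁ L₁ : Set U) (K₂ L₂ : Set V)
    (hK₁ : IsCompact K₁) (hL₁ : IsCompact L₁) (hK₂ : IsCompact K₂) (hL₂ : IsCompact L₂)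
    (zK₁ : (0 : U) ∈ K₁) (zL₁ : (0 : U) ∈ L₁) (zK₂ : (0 : V) ∈ K₂) (zL₂ : (0 : V) ∈ L₂) :
    prodBody (logSum t K₁ L₁) (logSum t K₂ L₂)
      ⊆ logSum t (prodBody K₁ K₂) (prodBody L₁ L₂) := by
  rintro z ⟨hz1, hz2⟩ u _
  have a1 := logSum_all t ht0 ht1 K₁ L₁ hK₁ hL₁ zK₁ zL₁ _ hz1 u.fst
  have a2 := logSum_all t ht0 ht1 K₂ L₂ hK₂ hL₂ zK₂ zL₂ _ hz2 u.snd
  have nK₁ := hSupp_nonneg K₁ hK₁ zK₁ u.fst
  have nL₁ := hSupp_nonneg L₁ hL₁ zL₁ u.fst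
  have nK₂ := hSupp_nonneg K₂ hK₂ zK₂ u.snd
  have nL₂ := hSupp_nonneg L₂ hL₂ zL₂ u.snd
  have hh := holder2 _ _ _ _ t nK₁ nK₂ nL₁ nL₂ ht0 ht1
  have gK := prod_hSupp_ge K₁ K₂ hK₁ hK₂ ⟨0, zK₁⟩ ⟨0, zK₂⟩ u
  have gL := prod_hSupp_ge L₁ L₂ hL₁ hL₂ ⟨0, zL₁⟩ ⟨0, zL₂⟩ u
  have m1 : (hSupp K₁ u.fst + hSupp K₂ u.snd) ^ (1 - t) ≤ hSupp (prodBody K₁ K₂) u ^ (1 - t) :=
    Real.rpow_le_rpow (add_nonneg nK₁ nK₂) gK (by linarith)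
  have m2 : (hSupp L₁ u.fst + hSupp L₂ u.snd) ^ t ≤ hSupp (prodBody L₁ L₂) u ^ t :=
    Real.rpow_le_rpow (add_nonneg nL₁ nL₂) gL ht0
  have m3 : (hSupp K₁ u.fst + hSupp K₂ u.snd) ^ (1 - t) * (hSupp L₁ u.fst + hSupp L₂ u.snd) ^ t
      ≤ hSupp (prodBody K₁ K₂) u ^ (1 - t) * hSupp (prodBody L₁ L₂) u ^ t :=
    mul_le_mul m1 m2 (Real.rpow_nonneg (add_nonneg nL₁ nL₂) _)
      (Real.rpow_nonneg (le_trans (add_nonneg nK₁ nK₂) gK) _)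
  have e : inner ℝ z u = inner ℝ (WithLp.ofLp z).1 u.fst + inner ℝ (WithLp.ofLp z).2 u.snd := by
    simp [WithLp.prod_inner_apply]
  rw [e]
  linarith

variable [MeasurableSpace U] [BorelSpace U] [FiniteDimensional ℝ U]
  [MeasurableSpace V] [BorelSpace V] [FiniteDimensional ℝ V]

theorem volume_prodBody (A : Set U) (B : Set V) :
    volume (prodBody A B) = volume A * volume B := by
  have h := (WithLp.volume_preserving_symm_measurableEquiv_toLp_prod U V).measure_preimage_equiv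
    (A ×ˢ B)
  have e : prodBody A B = (MeasurableEquiv.toLp 2 (U × V)).symm ⁻¹' (A ×ˢ B) := by
    ext z
    simp [prodBody]
  rw [e, h, Measure.volume_eq_prod, Measure.prod_prod]

theorem prod_logBM (t : ℝ) (ht0 : 0 ≤ t) (ht1 : t ≤ 1)
    (K₁ L₁ : Set U) (K₂ L₂ : Set V)
    (hK₁ : IsCompact K₁) (hL₁ : IsCompact L₁) (hK₂ : IsCompact K₂) (hL₂ : IsCompact L₂)
    (zK₁ : (0 : U) ∈ K₁) (zL₁ : (0 : U) ∈ L₁) (zK₂ : (0 : V) ∈ K₂) (zL₂ : (0 : V) ∈ L₂)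
    (h₁ : LogBM t K₁ L₁) (h₂ : LogBM t K₂ L₂) :
    LogBM t (prodBody K₁ K₂) (prodBody L₁ L₂) := by
  unfold LogBM at *
  have hsub := prod_logSum_subset t ht0 ht1 K₁ L₁ K₂ L₂ hK₁ hL₁ hK₂ hL₂ zK₁ zL₁ zK₂ zL₂
  have hmono := measure_mono (μ := volume) hsub
  rw [volume_prodBody] at hmono
  rw [volume_prodBody, volume_prodBody,
    ENNReal.mul_rpow_of_nonneg _ _ (by linarith : (0 : ℝ) ≤ 1 - t),
    ENNReal.mul_rpow_of_nonneg _ _ ht0]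
  calc volume K₁ ^ (1 - t) * volume K₂ ^ (1 - t) * (volume L₁ ^ t * volume L₂ ^ t)
      = (volume K₁ ^ (1 - t) * volume L₁ ^ t) * (volume K₂ ^ (1 - t) * volume L₂ ^ t) := by ring
    _ ≤ volume (logSum t K₁ L₁) * volume (logSum t K₂ L₂) := mul_le_mul' h₁ h₂
    _ ≤ _ := hmono

end Vale.Agent.Helper24.P227
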