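import Mathlib
import Vale.Agent.Helper24.P227Defs
import Vale.Agent.Helper24.P227Lemmas
import Vale.Agent.Helper24.P227Prod

namespace Vale.Agent.Helper24.P227

open MeasureTheory
open scoped Pointwise

section

variable {E : Type*} [NormedAddCommGroup E] [InnerProductSpace ℝ E]

theorem symm_zero_mem (K : Set E) (hK : IsSymmBody K) : (0 : E) ∈ K := by
  obtain ⟨_, hconv, ⟨x, hx⟩, hsymm⟩ := hK
  have hxK : x ∈ K := interior_subset hx
  have := hconv hxK (hsymm x hxK) (by norm_num : (0 : ℝ) ≤ 1 / 2) (by norm_num : (0 : ℝ) ≤ 1 / 2)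
    (by norm_num)
  simpa using this

theorem isSymmBody_dilate (K : Set E) (hK : IsSymmBody K) (c : ℝ) (hc : 0 < c) :
    IsSymmBody ((fun x : E => c • x) '' K) := by
  obtain ⟨hcomp, hconv, hint, hsymm⟩ := hK
  have e : (fun x : E => c • x) '' K = c • K := Set.image_smul
  refine ⟨hcomp.image (by fun_prop), ?_, ?_, ?_⟩
  · rw [e]; exact hconv.smul c
  · rw [e, interior_smul₀ hc.ne']
    exact hint.smul_set
  · rintro _ ⟨x, hx, rfl⟩
    exact ⟨-x, hsymm x hx, by simp⟩

theorem hSupp_dilate (K : Set E) (c : ℝ) (hc : 0 ≤ c) (u : E) :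
    hSupp ((fun x : E => c • x) '' K) u = c * hSupp K u := by
  unfold hSupp
  have : (fun x : E => inner ℝ x u) '' ((fun x : E => c • x) '' K)
      = c • ((fun x : E => inner ℝ x u) '' K) := by
    ext y
    constructor
    · rintro ⟨_, ⟨x, hx, rfl⟩, rfl⟩
      exact ⟨inner ℝ x u, ⟨x, hx, rfl⟩, by simp [inner_smul_left]⟩
    · rintro ⟨_, ⟨x, hx, rfl⟩, rfl⟩
      exact ⟨c • x, ⟨x, hx, rfl⟩, by simp [inner_smul_left]⟩
  rw [this, Real.sSup_smul_of_nonneg hc, smul_eq_mul]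

theorem dilate_subset_logSum (K : Set E) (hK : IsSymmBody K) (c t : ℝ) (hc : 0 < c)
    (ht0 : 0 ≤ t) :
    (c ^ t) • K ⊆ logSum t K ((fun x : E => c • x) '' K) := by
  rintro _ ⟨y, hy, rfl⟩ u _
  have h0 := symm_zero_mem K hK
  have hn := hSupp_nonneg K hK.1 h0 u
  have hle : inner ℝ y u ≤ hSupp K u := le_csSup (bdd_image K hK.1 u) ⟨y, hy, rfl⟩
  rw [hSupp_dilate K c hc.le u, Real.mul_rpow hc.le hn]
  have e : hSupp K u ^ (1 - t) * (c ^ t * hSupp K u ^ t) = c ^ t * hSupp K u := by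
    rcases eq_or_lt_of_le hn with h | h
    · rw [← h]
      by_cases ht : t = 0
      · subst ht; simp
      · rw [Real.zero_rpow ht]; simp
    · have : hSupp K u ^ (1 - t) * hSupp K u ^ t = hSupp K u := by
        rw [← Real.rpow_add h]; simp
      calc hSupp K u ^ (1 - t) * (c ^ t * hSupp K u ^ t)
          = c ^ t * (hSupp K u ^ (1 - t) * hSupp K u ^ t) := by ring
        _ = c ^ t * hSupp K u := by rw [this]
  rw [e]
  simp only [inner_smul_left]
  exact mul_le_mul_of_nonneg_left hle (Real.rpow_nonneg hc.le t)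

variable [MeasurableSpace E] [BorelSpace E] [FiniteDimensional ℝ E]

theorem logBM_dilate (K : Set E) (hK : IsSymmBody K) (c t : ℝ) (hc : 0 < c)
    (ht0 : 0 ≤ t) : LogBM t K ((fun x : E => c • x) '' K) := by
  unfold LogBM
  have hsub := dilate_subset_logSum K hK c t hc ht0
  have hmono := measure_mono (μ := volume) hsub
  have e : (fun x : E => c • x) '' K = c • K := Set.image_smul
  have hfin : volume K ≠ ⊤ := hK.1.measure_lt_top.ne
  have hpos : volume K ≠ 0 := (Measure.measure_pos_of_nonempty_interior volume hK.2.2.1).ne'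
  rw [Measure.addHaar_smul] at hmono
  rw [e, Measure.addHaar_smul, ENNReal.mul_rpow_of_nonneg _ _ ht0]
  have e1 : volume K ^ (1 - t) * volume K ^ t = volume K := by
    rw [← ENNReal.rpow_add _ _ hpos hfin]; simp
  have e2 : ENNReal.ofReal |c ^ Module.finrank ℝ E| ^ t
      = ENNReal.ofReal |(c ^ t) ^ Module.finrank ℝ E| := by
    rw [abs_of_nonneg (pow_nonneg hc.le _),
      abs_of_nonneg (pow_nonneg (Real.rpow_nonneg hc.le _) _),
      ENNReal.ofReal_rpow_of_nonneg (pow_nonneg hc.le _) ht0]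
    congr 1
    rw [← Real.rpow_natCast, ← Real.rpow_natCast, ← Real.rpow_mul hc.le, ← Real.rpow_mul hc.le,
      mul_comm]
  calc volume K ^ (1 - t) * (ENNReal.ofReal |c ^ Module.finrank ℝ E| ^ t * volume K ^ t)
      = ENNReal.ofReal |c ^ Module.finrank ℝ E| ^ t * (volume K ^ (1 - t) * volume K ^ t) := by
        ring
    _ = ENNReal.ofReal |(c ^ t) ^ Module.finrank ℝ E| * volume K := by rw [e1, e2]
    _ ≤ _ := hmono

end

section

variable {U V : Type*} [NormedAddCommGroup U] [InnerProductSpace ℝ U]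
  [NormedAddCommGroup V] [InnerProductSpace ℝ V]

theorem isSymmBody_prod (A : Set U) (B : Set V) (hA : IsSymmBody A) (hB : IsSymmBody B) :
    IsSymmBody (prodBody A B) := by
  obtain ⟨hAc, hAconv, ⟨a, ha⟩, hAs⟩ := hA
  obtain ⟨hBc, hBconv, ⟨b, hb⟩, hBs⟩ := hB
  refine ⟨?_, ?_, ?_, ?_⟩
  · have e : prodBody A B = (WithLp.toLp 2) '' (A ×ˢ B) := by
      ext z
      constructor
      · rintro ⟨h1, h2⟩
        exact ⟨WithLp.ofLp z, ⟨h1, h2⟩, by simp⟩
      · rintro ⟨p, ⟨h1, h2⟩, rfl⟩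
        exact ⟨h1, h2⟩
    rw [e]
    exact (hAc.prod hBc).image (WithLp.prod_continuous_toLp 2 U V)
  · intro z hz w hw α β hα hβ hαβ
    exact ⟨hAconv hz.1 hw.1 hα hβ hαβ, hBconv hz.2 hw.2 hα hβ hαβ⟩
  · refine ⟨WithLp.toLp 2 (a, b), ?_⟩
    rw [mem_interior]
    refine ⟨(WithLp.ofLp) ⁻¹' (interior A ×ˢ interior B), ?_, ?_, ?_⟩
    · rintro z ⟨h1, h2⟩
      exact ⟨interior_subset h1, interior_subset h2⟩
    · exact (isOpen_interior.prod isOpen_interior).preimage (WithLp.prod_continuous_ofLp 2 U V)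
    · exact ⟨ha, hb⟩
  · rintro z ⟨h1, h2⟩
    exact ⟨hAs _ h1, hBs _ h2⟩

end

end Vale.Agent.Helper24.P227
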